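import Crest.Agent.H3.Snaky.Leaf

set_option autoImplicit false

namespace Crest.Agent.H3.Snaky

/-- Certificate trees. -/
inductive T : Type
  | lf (k s : ℕ) : T
  | rf (i : ℕ) : T
  | nd (m x : ℕ) (s : T) : T
  | cs (t s : T) : T

/-- Evaluation results. -/
structure Q : Type where
  (ok : Bool) (R I U d : ℕ)

def Q.bad : Q := ⟨false, 0, 0, 0, 0⟩

/-- pattern -/
def Q.p (R A d : ℕ) : Q := ⟨true, R, A, A, d⟩

def lk : List Q → ℕ → Q
  | [], _ => Q.bad
  | q :: _, 0 => q
  | _ :: l, n + 1 => lk l n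

def evLf (k s : ℕ) : Q :=
  let A := Nat.shiftLeft 1 (Nat.add s (Nat.land (Nat.shiftRight tabA (Nat.mul 8 k)) 255))
  ⟨and (Nat.blt k 48) (Nat.ble (Nat.add (Nat.mod s 22) (Nat.land (Nat.shiftRight tabW (Nat.mul 4 k)) 15)) 22),
    Nat.shiftLeft (Nat.land (Nat.shiftRight tabR (Nat.mul 128 k)) 0xffffffffffffffffffffffffffffffff) s,
    A, A, 1⟩

def evNd (m x : ℕ) (q : Q) : Q :=
  let b := Nat.shiftLeft 1 m
  let R2 := Nat.lor (Nat.lor q.R x) b
  let R1 := Nat.xor R2 b
  let A := Nat.xor (Nat.lor q.U R2) R1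
  ⟨and q.ok (Nat.beq (Nat.lor q.I R2) R2), R1, A, A, Nat.succ q.d⟩

def evCs (p q : Q) : Q :=
  ⟨and p.ok q.ok, Nat.lor p.R q.R, Nat.land p.I q.I, Nat.lor p.U q.U,
    cond (Nat.ble p.d q.d) q.d p.d⟩

noncomputable def ev (env : List Q) (t : T) : Q :=
  T.rec (motive := fun _ => Q) (fun k s => evLf k s) (fun i => lk env i) (fun m x _ q => evNd m x q)
    (fun _ _ p q => evCs p q) t

def QOK (q : Q) : Prop := SOK q.R q.I q.U q.d

def EnvOK : List Q → Prop
  | [] => True
  | q :: l => QOK q ∧ EnvOK l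

theorem lk_ok : ∀ (l : List Q) (i : ℕ), EnvOK l → (lk l i).ok = true → QOK (lk l i)
  | [], i, _, h => by simp [lk, Q.bad] at h
  | q :: l, 0, hl, _ => hl.1
  | q :: l, n + 1, hl, h => lk_ok l n hl.2 h

theorem evLf_ok (k s : ℕ) (h : (evLf k s).ok = true) : QOK (evLf k s) := by
  have h' : (and (Nat.blt k 48) (Nat.ble (Nat.add (Nat.mod s 22) (Nat.land (Nat.shiftRight tabW (Nat.mul 4 k)) 15)) 22)) = true := h
  rw [Bool.and_eq_true] at h'
  have h1 : k < 48 := by
    have := h'.1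
    simpa [Nat.blt_eq] using this
  have h2 : s % 22 + ((tabW >>> (4 * k)) &&& 15) ≤ 22 := Nat.le_of_ble_eq_true h'.2
  exact SOK.one (lf_ok k s h1 h2)

theorem SOK.cons' {R I U d R' I' U' d' : ℕ} (h : SOK R I U d) (hs : SOK R' I' U' d') (e : ℕ)
    (he : d ≤ e) (he' : d' ≤ e) :
    SOK (R ||| R') (I &&& I') (U ||| U') e := by
  intro M B hM hB hd hR hU b hbM hbB hI
  by_cases hA : ∃ c, I.testBit c = true ∧ pt c = b
  · obtain ⟨c, hc, hcb⟩ := hA
    refine FW.le he' (hs M B hM hB hd ?_ ?_ b hbM hbB ?_)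
    · intro c hc; exact hR c (by rw [Nat.testBit_lor, hc, Bool.or_true])
    · intro c hc; exact hU c (by rw [Nat.testBit_lor, hc, Bool.or_true])
    · intro c' hc' hc'b
      have : c' = c := pt_inj (hc'b.trans hcb.symm)
      subst this
      exact hI c' (by rw [Nat.testBit_land, hc, hc', Bool.and_self]) hcb
  · refine FW.le he (h M B hM hB hd ?_ ?_ b hbM hbB ?_)
    · intro c hc; exact hR c (by rw [Nat.testBit_lor, hc, Bool.true_or])
    · intro c hc; exact hU c (by rw [Nat.testBit_lor, hc, Bool.true_or])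
    · intro c hc hcb; exact hA ⟨c, hc, hcb⟩

theorem evCs_ok (p q : Q) (hp : p.ok = true → QOK p) (hq : q.ok = true → QOK q)
    (h : (evCs p q).ok = true) : QOK (evCs p q) := by
  have h' : (and p.ok q.ok) = true := h
  rw [Bool.and_eq_true] at h'
  have key : ∀ e, p.d ≤ e → q.d ≤ e → SOK (p.R ||| q.R) (p.I &&& q.I) (p.U ||| q.U) e :=
    fun e h1 h2 => SOK.cons' (hp h'.1) (hq h'.2) e h1 h2
  change SOK (p.R ||| q.R) (p.I &&& q.I) (p.U ||| q.U) (cond (Nat.ble p.d q.d) q.d p.d)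
  cases hb : Nat.ble p.d q.d
  · refine key _ le_rfl ?_
    have : ¬ (p.d ≤ q.d) := fun hle => by
      have := Nat.ble_eq_true_of_le hle
      rw [hb] at this; exact absurd this (by decide)
    simp only [cond_false]; omega
  · exact key _ (Nat.le_of_ble_eq_true hb) le_rfl

theorem lor_sub {a b : ℕ} (h : a ||| b = b) (c : ℕ) (hc : a.testBit c = true) : b.testBit c = true := by
  rw [← h, Nat.testBit_lor, hc, Bool.true_or]

theorem evNd_ok (m x : ℕ) (q : Q) (hq : q.ok = true → QOK q) (h : (evNd m x q).ok = true) :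
    QOK (evNd m x q) := by
  have h' : (and q.ok (Nat.beq (Nat.lor q.I (Nat.lor (Nat.lor q.R x) (Nat.shiftLeft 1 m))) (Nat.lor (Nat.lor q.R x) (Nat.shiftLeft 1 m)))) = true := h
  rw [Bool.and_eq_true] at h'
  have hI := Nat.eq_of_beq_eq_true h'.2
  have hs := hq h'.1
  have key : PatOK (((q.R ||| x) ||| (1 <<< m)) ^^^ (1 <<< m))
      ((q.U ||| ((q.R ||| x) ||| (1 <<< m))) ^^^ (((q.R ||| x) ||| (1 <<< m)) ^^^ (1 <<< m))) (q.d + 1) := by
    have bm : ∀ c, (1 <<< m : ℕ).testBit c = decide (c = m) := by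
      intro c
      rw [Nat.one_shiftLeft, Nat.testBit_two_pow]
      exact decide_eq_decide.mpr eq_comm
    have R1 : ∀ c, ((((q.R ||| x) ||| (1 <<< m)) ^^^ (1 <<< m)).testBit c = true ∨ c = m) ↔
        ((q.R ||| x) ||| (1 <<< m)).testBit c = true := by
      intro c
      rw [Nat.testBit_xor]
      simp only [Nat.testBit_lor, bm]
      by_cases hc : c = m <;> simp [hc]
    refine PatOK.node m _ hs ?_ ?_ _ ?_ ?_
    · intro c hc
      rw [R1, Nat.testBit_lor, Nat.testBit_lor, hc, Bool.true_or, Bool.true_or]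
    · intro c hc
      rw [R1]
      exact lor_sub hI c hc
    · intro c hc
      by_cases h1 : (((q.R ||| x) ||| (1 <<< m)) ^^^ (1 <<< m)).testBit c = true
      · exact Or.inr h1
      · left
        rw [Bool.not_eq_true] at h1
        rw [Nat.testBit_xor, h1, Nat.testBit_lor, hc, Bool.true_or]; rfl
    · rw [Nat.testBit_xor, Nat.testBit_lor, Nat.testBit_xor]
      simp only [Nat.testBit_lor, bm]
      simp
  exact SOK.one key

theorem ev_ok (env : List Q) (henv : EnvOK env) : ∀ t, (ev env t).ok = true → QOK (ev env t) := by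
  intro t
  induction t with
  | lf k s => intro h; exact evLf_ok k s h
  | rf i => intro h; exact lk_ok env i henv h
  | nd m x s ih => intro h; exact evNd_ok m x _ ih h
  | cs t s iht ihs => intro h; exact evCs_ok _ _ iht ihs h

def beqQ (p q : Q) : Bool :=
  and p.ok (and (Nat.beq p.R q.R) (and (Nat.beq p.I q.I) (and (Nat.beq p.U q.U) (Nat.ble p.d q.d))))

theorem cut (env : List Q) (henv : EnvOK env) (t : T) (q : Q) (h : beqQ (ev env t) q = true) :
    QOK q := by
  have h' : (and (ev env t).ok (and (Nat.beq (ev env t).R q.R) (and (Nat.beq (ev env t).I q.I)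
    (and (Nat.beq (ev env t).U q.U) (Nat.ble (ev env t).d q.d))))) = true := h
  rw [Bool.and_eq_true, Bool.and_eq_true, Bool.and_eq_true, Bool.and_eq_true] at h'
  obtain ⟨h1, h2, h3, h4, h5⟩ := h'
  have e2 := Nat.eq_of_beq_eq_true h2
  have e3 := Nat.eq_of_beq_eq_true h3
  have e4 := Nat.eq_of_beq_eq_true h4
  have e5 := Nat.le_of_ble_eq_true h5
  have := ev_ok env henv t h1
  unfold QOK at this ⊢
  rw [← e2, ← e3, ← e4]
  intro M B hM hB hd hR hU b hbM hbB hI
  exact FW.le e5 (this M B hM hB hd hR hU b hbM hbB hI)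

end Crest.Agent.H3.Snaky
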