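import Mathlib
import Crest.Prelude.Def_PolyominoGame

set_option autoImplicit false

/-!
Soundness core for a bitmask certificate of a Maker win in the Snaky game.
-/

namespace Crest.Agent.H3.Snaky

open Crest.CombinatoricsR.PolyominoGame

abbrev Cell := ℤ × ℤ

/-- Maker to move, `d` Maker moves left. -/
def FW : ℕ → Set Cell → Set Cell → Prop
  | 0, M, _ => ContainsCopy M
  | d + 1, M, B => ContainsCopy M ∨
      ∃ m, m ∉ M ∧ m ∉ B ∧ ∀ b, b ∉ M → b ≠ m → b ∉ B → FW d (insert m M) (insert b B)

theorem ContainsCopy.mono {X Y : Set Cell} (h : X ⊆ Y) (hX : ContainsCopy X) : ContainsCopy Y := by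
  obtain ⟨t, e1, e2, h1, h2, h3⟩ := hX
  refine ⟨t, e1, e2, h1, h2, ?_⟩
  rcases h3 with h3 | h3
  · exact Or.inl fun p hp => h (h3 p hp)
  · exact Or.inr fun p hp => h (h3 p hp)

theorem FW.of_copy {d : ℕ} {M B : Set Cell} (h : ContainsCopy M) : FW d M B := by
  cases d with
  | zero => exact h
  | succ d => exact Or.inl h

theorem FW.succ {d : ℕ} : ∀ {M B : Set Cell}, FW d M B → FW (d + 1) M B := by
  induction d with
  | zero => intro M B h; exact Or.inl h
  | succ d ih =>
    intro M B h
    rcases h with h | ⟨m, h1, h2, h3⟩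
    · exact Or.inl h
    · exact Or.inr ⟨m, h1, h2, fun b hb1 hb2 hb3 => ih (h3 b hb1 hb2 hb3)⟩

theorem FW.le {d e : ℕ} (h : d ≤ e) {M B : Set Cell} (hd : FW d M B) : FW e M B := by
  induction h with
  | refl => exact hd
  | step _ ih => exact FW.succ ih

/-- The cell with index `c` in a board with rows of 22. -/
def pt (c : ℕ) : Cell := (((c % 22 : ℕ) : ℤ), ((c / 22 : ℕ) : ℤ))

theorem pt_inj {a b : ℕ} (h : pt a = pt b) : a = b := by
  simp only [pt, Prod.mk.injEq, Nat.cast_inj] at h
  omega

/-- Pattern validity: Maker (to move) wins within `d` moves from every position in which Maker owns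
the cells of `R` and Breaker owns no cell of `A`. -/
def PatOK (R A d : ℕ) : Prop :=
  ∀ M B : Set Cell, M.Finite → B.Finite → Disjoint M B →
    (∀ c, R.testBit c = true → pt c ∈ M) → (∀ c, A.testBit c = true → pt c ∉ B) → FW d M B

theorem exists_free {M B : Set Cell} (hM : M.Finite) (hB : B.Finite) : ∃ m, m ∉ M ∧ m ∉ B := by
  obtain ⟨m, hm⟩ := (hM.union hB).infinite_compl.nonempty
  exact ⟨m, fun h => hm (Or.inl h), fun h => hm (Or.inr h)⟩

theorem exists_free3 {M B : Set Cell} (m : Cell) (hM : M.Finite) (hB : B.Finite) :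
    ∃ b, b ∉ M ∧ b ≠ m ∧ b ∉ B := by
  obtain ⟨b, hb1, hb2⟩ := exists_free (M := insert m M) (hM.insert m) hB
  exact ⟨b, fun h => hb1 (Or.inr h), fun h => hb1 (Or.inl h), hb2⟩

/-- Breaker-to-move evidence: `I` is the intersection and `U` the union of the `A`-sets. -/
def SOK (R I U d : ℕ) : Prop :=
  ∀ M B : Set Cell, M.Finite → B.Finite → Disjoint M B →
    (∀ c, R.testBit c = true → pt c ∈ M) → (∀ c, U.testBit c = true → pt c ∉ B) →
    ∀ b, b ∉ M → b ∉ B → (∀ c, I.testBit c = true → pt c ≠ b) → FW d M (insert b B)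

theorem SOK.one {R A d : ℕ} (h : PatOK R A d) : SOK R A A d := by
  intro M B hM hB hd hR hU b hbM hbB hI
  refine h M (insert b B) hM (hB.insert b) ?_ hR ?_
  · rw [Set.disjoint_insert_right]; exact ⟨hbM, hd⟩
  · intro c hc hcb
    rcases hcb with hcb | hcb
    · exact hI c hc hcb
    · exact hU c hc hcb

theorem SOK.cons {R A d R' I U d' : ℕ} (h : PatOK R A d) (hs : SOK R' I U d') :
    SOK (R ||| R') (A &&& I) (A ||| U) (max d d') := by
  intro M B hM hB hd hR hU b hbM hbB hI
  by_cases hA : ∃ c, A.testBit c = true ∧ pt c = b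
  · -- then b is not in I
    obtain ⟨c, hc, hcb⟩ := hA
    refine FW.le (le_max_right d d') (hs M B hM hB hd ?_ ?_ b hbM hbB ?_)
    · intro c hc; exact hR c (by rw [Nat.testBit_lor, hc, Bool.or_true])
    · intro c hc; exact hU c (by rw [Nat.testBit_lor, hc, Bool.or_true])
    · intro c' hc' hc'b
      have : c' = c := pt_inj (hc'b.trans hcb.symm)
      subst this
      exact hI c' (by rw [Nat.testBit_land, hc, hc', Bool.and_self]) hcb
  · refine FW.le (le_max_left d d') (h M (insert b B) hM (hB.insert b) ?_ ?_ ?_)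
    · rw [Set.disjoint_insert_right]; exact ⟨hbM, hd⟩
    · intro c hc; exact hR c (by rw [Nat.testBit_lor, hc, Bool.true_or])
    · intro c hc hcb
      rcases hcb with hcb | hcb
      · exact hA ⟨c, hc, hcb⟩
      · exact hU c (by rw [Nat.testBit_lor, hc, Bool.true_or]) hcb

/-- Main node rule. `R'` = required stones after Maker's move at `m`. -/
theorem PatOK.node {R I U d : ℕ} (m R' : ℕ) (hs : SOK R I U d)
    (hR : ∀ c, R.testBit c = true → R'.testBit c = true ∨ c = m)
    (hI : ∀ c, I.testBit c = true → R'.testBit c = true ∨ c = m) (A : ℕ)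
    (hA : ∀ c, U.testBit c = true → A.testBit c = true ∨ R'.testBit c = true)
    (hm : A.testBit m = true) :
    PatOK R' A (d + 1) := by
  intro M B hM hB hd hRM hAB
  by_cases hmM : pt m ∈ M
  · -- m already owned: play any free cell
    obtain ⟨m', hm'1, hm'2⟩ := exists_free hM hB
    refine Or.inr ⟨m', hm'1, hm'2, fun b hb1 hb2 hb3 => ?_⟩
    refine hs (insert m' M) B (hM.insert _) hB ?_ ?_ ?_ b ?_ hb3 ?_
    · rw [Set.disjoint_insert_left]; exact ⟨hm'2, hd⟩
    · intro c hc
      rcases hR c hc with h | h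
      · exact Or.inr (hRM c h)
      · subst h; exact Or.inr hmM
    · intro c hc
      rcases hA c hc with h | h
      · exact hAB c h
      · exact fun hb => (Set.disjoint_left.mp hd) (hRM c h) hb
    · rintro (h | h)
      · exact hb2 h
      · exact hb1 h
    · intro c hc hcb
      rcases hI c hc with h | h
      · exact hb1 (hcb ▸ hRM c h)
      · subst h; exact hb1 (hcb ▸ hmM)
  · refine Or.inr ⟨pt m, hmM, hAB m hm, fun b hb1 hb2 hb3 => ?_⟩
    refine hs (insert (pt m) M) B (hM.insert _) hB ?_ ?_ ?_ b ?_ hb3 ?_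
    · rw [Set.disjoint_insert_left]; exact ⟨hAB m hm, hd⟩
    · intro c hc
      rcases hR c hc with h | h
      · exact Or.inr (hRM c h)
      · subst h; exact Or.inl rfl
    · intro c hc
      rcases hA c hc with h | h
      · exact hAB c h
      · exact fun hb => (Set.disjoint_left.mp hd) (hRM c h) hb
    · rintro (h | h)
      · exact hb2 h
      · exact hb1 h
    · intro c hc hcb
      rcases hI c hc with h | h
      · exact hb1 (hcb ▸ hRM c h)
      · subst h; exact hb2 hcb.symm

end Crest.Agent.H3.Snaky
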