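import Crest.Agent.H3.Snaky.Sym
import Crest.Agent.H3.Snaky.CR.CR78

set_option autoImplicit false
set_option maxRecDepth 100000

namespace Crest.Agent.H3.Snaky

open CR

def rootList : List Q := [q79004, q82178, q88738, q92237, q96230, q98313, q100844, q102724, q105119, q107012, q108256, q110007, q111111, q112749, q113990, q114730, q115613, q115926]

theorem rootOK : EnvOK rootList := ⟨c79004, c82178, c88738, c92237, c96230, c98313, c100844, c102724, c105119, c107012, c108256, c110007, c111111, c112749, c113990, c114730, c115613, c115926, trivial⟩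

/-- every octant cell `(x, y)` avoids some root pattern -/
def hit (l : List Q) (c : ℕ) : Bool :=
  l.any fun q => (Nat.beq q.R 0 || Nat.beq q.R (1 <<< 253)) && Nat.ble q.d 20 && !(q.I.testBit c)

theorem rootHit : ((List.range 22).all fun y => (List.range 22).all fun x =>
    (Nat.blt y 11 || Nat.blt x y || Nat.ble x 11 || hit rootList (y * 22 + x))) = true := by
  decide +kernel

theorem EnvOK.mem : ∀ {l : List Q}, EnvOK l → ∀ q ∈ l, QOK q
  | [], _, q, hq => by simp at hq
  | a :: l, h, q, hq => by
    rcases List.mem_cons.mp hq with h' | h'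
    · rw [h']; exact h.1
    · exact EnvOK.mem h.2 q h'

theorem rootHit0 : hit rootList 0 = true := by decide +kernel

theorem good_oct (x y : ℕ) (hy : 11 ≤ y) (hxy : y ≤ x) (hx : 11 < x) : Good ((x : ℤ), (y : ℤ)) := by
  have hne : ((x : ℤ), (y : ℤ)) ≠ ctr := by
    intro h; simp only [ctr, Prod.mk.injEq] at h; omega
  -- find a pattern
  have key : ∃ q ∈ rootList, (q.R = 0 ∨ q.R = 1 <<< 253) ∧ q.d ≤ 20 ∧
      ∀ c, q.I.testBit c = true → pt c ≠ ((x : ℤ), (y : ℤ)) := by
    by_cases hx22 : x < 22
    · have h := rootHit
      rw [List.all_eq_true] at h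
      have h := h y (List.mem_range.mpr (by omega))
      rw [List.all_eq_true] at h
      have h := h x (List.mem_range.mpr hx22)
      have e1 : Nat.blt y 11 = false := by
        rw [Bool.eq_false_iff]; intro h'; rw [Nat.blt_eq] at h'; omega
      have e2 : Nat.blt x y = false := by
        rw [Bool.eq_false_iff]; intro h'; rw [Nat.blt_eq] at h'; omega
      have e3 : Nat.ble x 11 = false := by
        rw [Bool.eq_false_iff]; intro h'; have := Nat.le_of_ble_eq_true h'; omega
      rw [e1, e2, e3, Bool.false_or, Bool.false_or, Bool.false_or] at h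
      unfold hit at h
      rw [List.any_eq_true] at h
      obtain ⟨q, hq, hq'⟩ := h
      rw [Bool.and_eq_true, Bool.and_eq_true, Bool.or_eq_true] at hq'
      obtain ⟨⟨hR, hd⟩, hI⟩ := hq'
      refine ⟨q, hq, ?_, Nat.le_of_ble_eq_true hd, ?_⟩
      · rcases hR with hR | hR
        · exact Or.inl (Nat.eq_of_beq_eq_true hR)
        · exact Or.inr (Nat.eq_of_beq_eq_true hR)
      · intro c hc he
        have : c = y * 22 + x := by
          simp only [pt, Prod.mk.injEq, Nat.cast_inj] at he
          omega
        rw [this] at hc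
        rw [hc] at hI
        exact absurd hI (by decide)
    · have h := rootHit0
      unfold hit at h
      rw [List.any_eq_true] at h
      obtain ⟨q, hq, hq'⟩ := h
      rw [Bool.and_eq_true, Bool.and_eq_true, Bool.or_eq_true] at hq'
      obtain ⟨⟨hR, hd⟩, hI⟩ := hq'
      refine ⟨q, hq, ?_, Nat.le_of_ble_eq_true hd, ?_⟩
      · rcases hR with hR | hR
        · exact Or.inl (Nat.eq_of_beq_eq_true hR)
        · exact Or.inr (Nat.eq_of_beq_eq_true hR)
      · intro c hc he
        simp only [pt, Prod.mk.injEq, Nat.cast_inj] at he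
        omega
  obtain ⟨q, hq, hR, hd, hb⟩ := key
  exact good_of_pat q (rootOK.mem q hq) hR.symm hd _ hne hb

theorem snaky_win : FW 21 ∅ ∅ := fw21 (good_all good_oct)

end Crest.Agent.H3.Snaky
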