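import Crest.Agent.H3.Snaky.Core

set_option autoImplicit false

namespace Crest.Agent.H3.Snaky

open Crest.CombinatoricsR.PolyominoGame

open Classical in
/-- Maker's next move in state `(d, M, B)`. -/
noncomputable def nxt (d : ℕ) (M B : Set Cell) : Cell :=
  if h : ∃ m, m ∉ M ∧ m ∉ B ∧ ∀ b, b ∉ M → b ≠ m → b ∉ B → FW (d - 1) (insert m M) (insert b B) then
    h.choose
  else if h : ∃ m, m ∉ M ∧ m ∉ B then h.choose else (0, 0)

noncomputable def step (s : ℕ × Set Cell × Set Cell) (b : Cell) : ℕ × Set Cell × Set Cell :=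
  (s.1 - 1, insert (nxt s.1 s.2.1 s.2.2) s.2.1, insert b s.2.2)

noncomputable def st (l : List Cell) : ℕ × Set Cell × Set Cell :=
  l.foldl step (21, ∅, ∅)

noncomputable def sig (l : List Cell) : Cell := nxt (st l).1 (st l).2.1 (st l).2.2

theorem nxt_free {d : ℕ} {M B : Set Cell} (hM : M.Finite) (hB : B.Finite) :
    nxt d M B ∉ M ∧ nxt d M B ∉ B := by
  unfold nxt
  split_ifs with h1 h2
  · exact ⟨h1.choose_spec.1, h1.choose_spec.2.1⟩
  · exact h2.choose_spec
  · exact absurd (exists_free hM hB) h2

theorem nxt_win {d : ℕ} {M B : Set Cell} (h : FW (d + 1) M B) (hn : ¬ ContainsCopy M) :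
    ∀ b, b ∉ M → b ≠ nxt (d + 1) M B → b ∉ B →
      FW d (insert (nxt (d + 1) M B) M) (insert b B) := by
  have h' : ∃ m, m ∉ M ∧ m ∉ B ∧ ∀ b, b ∉ M → b ≠ m → b ∉ B →
      FW (d + 1 - 1) (insert m M) (insert b B) := by
    rcases h with h | h
    · exact absurd h hn
    · exact h
  have e : nxt (d + 1) M B = h'.choose := by
    unfold nxt
    rw [dif_pos h']
  rw [e]
  exact h'.choose_spec.2.2

theorem main_of_FW (h : FW 21 ∅ ∅) :
    ∃ σ : List (ℤ × ℤ) → ℤ × ℤ, ∀ b : ℕ → ℤ × ℤ,
      (∀ k : ℕ, k < 20 →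
        (∀ j : ℕ, j ≤ k → b k ≠ Crest.CombinatoricsR.PolyominoGame.makerClaim σ b j) ∧
        (∀ j : ℕ, j < k → b k ≠ b j)) →
      (∀ k : ℕ, k ≤ 20 →
        (∀ j : ℕ, j < k → Crest.CombinatoricsR.PolyominoGame.makerClaim σ b k ≠
          Crest.CombinatoricsR.PolyominoGame.makerClaim σ b j) ∧
        (∀ j : ℕ, j < k → Crest.CombinatoricsR.PolyominoGame.makerClaim σ b k ≠ b j)) ∧
      Crest.CombinatoricsR.PolyominoGame.ContainsCopy
        {c | ∃ j : ℕ, j ≤ 20 ∧ c = Crest.CombinatoricsR.PolyominoGame.makerClaim σ b j} := by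
  refine ⟨sig, fun b hleg => ?_⟩
  set S : ℕ → ℕ × Set Cell × Set Cell := fun k => st ((List.range k).map b) with hS
  have S0 : S 0 = (21, ∅, ∅) := by simp [hS, st]
  have Ss : ∀ k, S (k + 1) = step (S k) (b k) := by
    intro k
    simp only [hS, st, List.range_succ, List.map_append, List.foldl_append, List.map_cons,
      List.map_nil, List.foldl_cons, List.foldl_nil]
  have mc : ∀ k, makerClaim sig b k = nxt (S k).1 (S k).2.1 (S k).2.2 := by
    intro k; rfl
  have S1 : ∀ k, (S k).1 = 21 - k := by
    intro k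
    induction k with
    | zero => rw [S0]
    | succ k ih => rw [Ss, step, ih]; omega
  have S2 : ∀ k, (S k).2.1 = {c | ∃ j, j < k ∧ c = makerClaim sig b j} := by
    intro k
    induction k with
    | zero => rw [S0]; ext c; simp
    | succ k ih =>
      rw [Ss, step]
      change insert (nxt (S k).1 (S k).2.1 (S k).2.2) (S k).2.1 = _
      rw [← mc k, ih]
      ext c
      simp only [Set.mem_insert_iff, Set.mem_ofPred_eq]
      constructor
      · rintro (h | ⟨j, hj, h⟩)
        · exact ⟨k, by omega, h⟩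
        · exact ⟨j, by omega, h⟩
      · rintro ⟨j, hj, h⟩
        rcases Nat.lt_succ_iff_lt_or_eq.mp hj with hj | hj
        · exact Or.inr ⟨j, hj, h⟩
        · subst hj; exact Or.inl h
  have S3 : ∀ k, (S k).2.2 = {c | ∃ j, j < k ∧ c = b j} := by
    intro k
    induction k with
    | zero => rw [S0]; ext c; simp
    | succ k ih =>
      rw [Ss, step]
      ext c
      simp only [Set.mem_insert_iff, ih, Set.mem_ofPred_eq]
      constructor
      · rintro (h | ⟨j, hj, h⟩)
        · exact ⟨k, by omega, h⟩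
        · exact ⟨j, by omega, h⟩
      · rintro ⟨j, hj, h⟩
        rcases Nat.lt_succ_iff_lt_or_eq.mp hj with hj | hj
        · exact Or.inr ⟨j, hj, h⟩
        · subst hj; exact Or.inl h
  have fin2 : ∀ k, (S k).2.1.Finite := by
    intro k
    induction k with
    | zero => rw [S0]; exact Set.finite_empty
    | succ k ih => rw [Ss, step]; exact ih.insert _
  have fin3 : ∀ k, (S k).2.2.Finite := by
    intro k
    induction k with
    | zero => rw [S0]; exact Set.finite_empty
    | succ k ih => rw [Ss, step]; exact ih.insert _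
  have free : ∀ k, makerClaim sig b k ∉ (S k).2.1 ∧ makerClaim sig b k ∉ (S k).2.2 := by
    intro k; rw [mc]; exact nxt_free (fin2 k) (fin3 k)
  -- winning invariant
  have win : ∀ k, k ≤ 20 → FW (21 - k) (S k).2.1 (S k).2.2 ∨ ContainsCopy (S k).2.1 := by
    intro k
    induction k with
    | zero => intro _; rw [S0]; exact Or.inl h
    | succ k ih =>
      intro hk
      have ih := ih (by omega)
      by_cases hc : ContainsCopy (S k).2.1
      · right
        rw [Ss, step]
        exact ContainsCopy.mono (Set.subset_insert _ _) hc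
      · rcases ih with ih | ih
        · left
          have e : 21 - k = (21 - (k + 1)) + 1 := by omega
          rw [e] at ih
          have w := nxt_win ih hc
          have e' : (S k).1 = (21 - (k + 1)) + 1 := by rw [S1]; omega
          rw [← e', ← mc] at w
          have hl := hleg k (by omega)
          have := w (b k) ?_ ?_ ?_
          · rw [Ss, step, ← mc]; exact this
          · rw [S2]; rintro ⟨j, hj, hbj⟩; exact hl.1 j (by omega) hbj
          · exact hl.1 k le_rfl
          · rw [S3]; rintro ⟨j, hj, hbj⟩; exact hl.2 j hj hbj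
        · exact absurd ih hc
  refine ⟨fun k hk => ⟨fun j hj he => ?_, fun j hj he => ?_⟩, ?_⟩
  · exact (free k).1 (by rw [S2]; exact ⟨j, hj, he⟩)
  · exact (free k).2 (by rw [S3]; exact ⟨j, hj, he⟩)
  · have w20 := win 20 le_rfl
    have hset : insert (makerClaim sig b 20) (S 20).2.1 =
        {c | ∃ j : ℕ, j ≤ 20 ∧ c = makerClaim sig b j} := by
      rw [S2]; ext c
      simp only [Set.mem_insert_iff, Set.mem_ofPred_eq]
      constructor
      · rintro (h | ⟨j, hj, h⟩)
        · exact ⟨20, le_rfl, h⟩
        · exact ⟨j, by omega, h⟩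
      · rintro ⟨j, hj, h⟩
        rcases Nat.lt_or_eq_of_le hj with hj | hj
        · exact Or.inr ⟨j, hj, h⟩
        · subst hj; exact Or.inl h
    rw [← hset]
    by_cases hc : ContainsCopy (S 20).2.1
    · exact ContainsCopy.mono (Set.subset_insert _ _) hc
    · rcases w20 with w | w
      · have w := nxt_win (d := 0) w hc
        have e' : (S 20).1 = 0 + 1 := by rw [S1]
        rw [← e', ← mc] at w
        obtain ⟨x, hx1, hx2, hx3⟩ := exists_free3 (makerClaim sig b 20) (fin2 20) (fin3 20)
        exact w x hx1 hx2 hx3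
      · exact absurd w hc

end Crest.Agent.H3.Snaky
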