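import Crest.Agent.H3.Snaky.Cert
import Crest.Agent.H3.Snaky.Game

set_option autoImplicit false

namespace Crest.Agent.H3.Snaky

open Crest.CombinatoricsR.PolyominoGame

theorem FW_map (g : Cell ≃ Cell) (hg : ∀ X : Set Cell, ContainsCopy X → ContainsCopy (g '' X)) :
    ∀ (d : ℕ) (M B : Set Cell), FW d M B → FW d (g '' M) (g '' B) := by
  intro d
  induction d with
  | zero => intro M B h; exact hg M h
  | succ d ih =>
    intro M B h
    rcases h with h | ⟨m, h1, h2, h3⟩
    · exact Or.inl (hg M h)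
    · refine Or.inr ⟨g m, ?_, ?_, fun b hb1 hb2 hb3 => ?_⟩
      · rintro ⟨x, hx, hxm⟩
        exact h1 (g.injective hxm ▸ hx)
      · rintro ⟨x, hx, hxm⟩
        exact h2 (g.injective hxm ▸ hx)
      · have hb : g (g.symm b) = b := g.apply_symm_apply b
        have := ih _ _ (h3 (g.symm b) (fun hh => hb1 ⟨_, hh, hb⟩)
          (fun hh => hb2 (by rw [← hb, hh])) (fun hh => hb3 ⟨_, hh, hb⟩))
        rw [Set.image_insert_eq, Set.image_insert_eq, hb] at this
        exact this

/-- reflection `x ↦ 22 - x` -/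
def g1 : Cell ≃ Cell where
  toFun p := (22 - p.1, p.2)
  invFun p := (22 - p.1, p.2)
  left_inv p := by ext <;> simp
  right_inv p := by ext <;> simp

/-- reflection `y ↦ 22 - y` -/
def g2 : Cell ≃ Cell where
  toFun p := (p.1, 22 - p.2)
  invFun p := (p.1, 22 - p.2)
  left_inv p := by ext <;> simp
  right_inv p := by ext <;> simp

/-- swap -/
def g3 : Cell ≃ Cell where
  toFun p := (p.2, p.1)
  invFun p := (p.2, p.1)
  left_inv p := by ext <;> simp
  right_inv p := by ext <;> simp

theorem neg_sign {e : ℤ} (h : e = 1 ∨ e = -1) : -e = 1 ∨ -e = -1 := by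
  rcases h with h | h
  · right; rw [h]
  · left; rw [h]; rfl

theorem g1_copy (X : Set Cell) (h : ContainsCopy X) : ContainsCopy (g1 '' X) := by
  obtain ⟨t, e1, e2, h1, h2, h3⟩ := h
  refine ⟨(22 - t.1, t.2), -e1, e2, neg_sign h1, h2, ?_⟩
  rcases h3 with h3 | h3
  · refine Or.inl fun p hp => ⟨_, h3 p hp, Prod.ext ?_ rfl⟩
    change 22 - (t.1 + e1 * p.1) = 22 - t.1 + -e1 * p.1
    ring
  · refine Or.inr fun p hp => ⟨_, h3 p hp, Prod.ext ?_ rfl⟩
    change 22 - (t.1 + e1 * p.2) = 22 - t.1 + -e1 * p.2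
    ring

theorem g2_copy (X : Set Cell) (h : ContainsCopy X) : ContainsCopy (g2 '' X) := by
  obtain ⟨t, e1, e2, h1, h2, h3⟩ := h
  refine ⟨(t.1, 22 - t.2), e1, -e2, h1, neg_sign h2, ?_⟩
  rcases h3 with h3 | h3
  · refine Or.inl fun p hp => ⟨_, h3 p hp, Prod.ext rfl ?_⟩
    change 22 - (t.2 + e2 * p.2) = 22 - t.2 + -e2 * p.2
    ring
  · refine Or.inr fun p hp => ⟨_, h3 p hp, Prod.ext rfl ?_⟩
    change 22 - (t.2 + e2 * p.1) = 22 - t.2 + -e2 * p.1
    ring

theorem g3_copy (X : Set Cell) (h : ContainsCopy X) : ContainsCopy (g3 '' X) := by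
  obtain ⟨t, e1, e2, h1, h2, h3⟩ := h
  refine ⟨(t.2, t.1), e2, e1, h2, h1, ?_⟩
  rcases h3 with h3 | h3
  · exact Or.inr fun p hp => ⟨_, h3 p hp, rfl⟩
  · exact Or.inl fun p hp => ⟨_, h3 p hp, rfl⟩

def ctr : Cell := (11, 11)

def Good (b : Cell) : Prop := FW 20 {ctr} {b}

theorem good_g1 (b : Cell) (h : Good (g1 b)) : Good b := by
  have := FW_map g1 g1_copy 20 _ _ h
  rw [Set.image_singleton, Set.image_singleton] at this
  have e1 : g1 ctr = ctr := rfl
  have e2 : g1 (g1 b) = b := g1.left_inv b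
  rw [e1, e2] at this
  exact this

theorem good_g2 (b : Cell) (h : Good (g2 b)) : Good b := by
  have := FW_map g2 g2_copy 20 _ _ h
  rw [Set.image_singleton, Set.image_singleton] at this
  have e1 : g2 ctr = ctr := rfl
  have e2 : g2 (g2 b) = b := g2.left_inv b
  rw [e1, e2] at this
  exact this

theorem good_g3 (b : Cell) (h : Good (g3 b)) : Good b := by
  have := FW_map g3 g3_copy 20 _ _ h
  rw [Set.image_singleton, Set.image_singleton] at this
  have e1 : g3 ctr = ctr := rfl
  have e2 : g3 (g3 b) = b := g3.left_inv b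
  rw [e1, e2] at this
  exact this

theorem good_all (h : ∀ x y : ℕ, 11 ≤ y → y ≤ x → 11 < x → Good ((x : ℤ), (y : ℤ))) :
    ∀ b : Cell, b ≠ ctr → Good b := by
  -- first quadrant-octant
  have h1 : ∀ b : Cell, 11 ≤ b.2 → b.2 ≤ b.1 → 11 < b.1 → Good b := by
    rintro ⟨x, y⟩ hy hxy hx
    simp only at hy hxy hx
    have := h x.toNat y.toNat (by omega) (by omega) (by omega)
    rwa [Int.toNat_of_nonneg (by omega), Int.toNat_of_nonneg (by omega)] at this
  have h2 : ∀ b : Cell, 11 ≤ b.2 → 11 ≤ b.1 → b ≠ ctr → Good b := by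
    rintro ⟨x, y⟩ hy hx hne
    simp only at hy hx
    rcases le_total y x with hxy | hxy
    · refine h1 _ hy hxy ?_
      rcases lt_or_eq_of_le hx with h | h
      · exact h
      · exfalso; apply hne
        simp only [ctr, Prod.mk.injEq]
        constructor <;> omega
    · refine good_g3 _ (h1 _ ?_ ?_ ?_)
      · exact hx
      · exact hxy
      · rcases lt_or_eq_of_le hy with h | h
        · exact h
        · exfalso; apply hne
          simp only [ctr, Prod.mk.injEq]
          constructor <;> omega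
  have h3 : ∀ b : Cell, 11 ≤ b.1 → b ≠ ctr → Good b := by
    rintro ⟨x, y⟩ hx hne
    simp only at hx
    rcases le_total 11 y with hy | hy
    · exact h2 _ hy hx hne
    · refine good_g2 _ (h2 _ ?_ ?_ ?_)
      · simp only [g2, Equiv.coe_fn_mk]; omega
      · exact hx
      · intro he
        apply hne
        simp only [g2, Equiv.coe_fn_mk, ctr, Prod.mk.injEq] at he ⊢
        constructor <;> omega
  rintro ⟨x, y⟩ hne
  rcases le_total 11 x with hx | hx
  · exact h3 _ hx hne
  · refine good_g1 _ (h3 _ ?_ ?_)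
    · simp only [g1, Equiv.coe_fn_mk]; omega
    · intro he
      apply hne
      simp only [g1, Equiv.coe_fn_mk, ctr, Prod.mk.injEq] at he ⊢
      constructor <;> omega

theorem fw21 (h : ∀ b : Cell, b ≠ ctr → Good b) : FW 21 ∅ ∅ := by
  refine Or.inr ⟨ctr, fun h => h, fun h => h, fun b _ hb _ => ?_⟩
  have := h b hb
  unfold Good at this
  simpa using this

theorem good_of_pat (q : Q) (h : QOK q) (hR : q.R = 1 <<< 253 ∨ q.R = 0) (hd : q.d ≤ 20) (b : Cell)
    (hne : b ≠ ctr) (hb : ∀ c, q.I.testBit c = true → pt c ≠ b) : Good b := by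
  refine FW.le hd ?_
  have := h {ctr} ∅ (Set.finite_singleton _) Set.finite_empty (Set.disjoint_empty _) ?_ ?_ b ?_ ?_ hb
  · simpa using this
  · intro c hc
    rcases hR with hR | hR
    · rw [hR, Nat.one_shiftLeft, Nat.testBit_two_pow] at hc
      have hc' : c = 253 := by simpa using (of_decide_eq_true hc).symm
      subst hc'
      rfl
    · rw [hR] at hc; simp at hc
  · intro c _; exact fun h => h
  · exact hne
  · exact fun h => h

end Crest.Agent.H3.Snaky
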